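import Mathlib

/-!
# A finite-dimensional Rayleigh tool (helper for S0453)

For two symmetric bilinear functions `B`, `N` on a nontrivial finite-dimensional real vector
space `V`, with `N` positive definite, the quotient `B x x / N x x` attains its maximum
(resp. minimum) `μ` at some `g` with `N g g = 1`, and `g` satisfies the eigenvector equation
`B g h = μ * N g h` for every `h`.

The forms are given as plain functions `V → V → ℝ` together with additivity / homogeneity in the
first argument and symmetry, so that no `BilinForm` structure has to be built by the user.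
-/

set_option autoImplicit false

namespace Crest.Agent.Helper5.S0453

open Finset

/-- Coordinate version of the Rayleigh tool. -/
theorem rayleigh_coord {d : ℕ} (hd : 0 < d) (B N : LinearMap.BilinForm ℝ (Fin d → ℝ))
    (hB : ∀ x y, B x y = B y x) (hN : ∀ x y, N x y = N y x)
    (hpos : ∀ x, x ≠ 0 → 0 < N x x) :
    ∃ (μ : ℝ) (g : Fin d → ℝ), N g g = 1 ∧ (∀ h, B g h = μ * N g h) ∧
      ∀ h, B h h ≤ μ * N h h := by
  classical
  have : Nonempty (Fin d) := ⟨⟨0, hd⟩⟩
  -- continuity of the quadratic forms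
  have hcont : ∀ C : LinearMap.BilinForm ℝ (Fin d → ℝ), Continuous fun x => C x x := by
    intro C
    have h1 : (fun x : Fin d → ℝ => C x x) =
        fun x => ∑ i, ∑ j, x i * LinearMap.BilinForm.toMatrix' C i j * x j := by
      funext x
      rw [← Matrix.toBilin'_apply, Matrix.toBilin'_toMatrix']
    rw [h1]
    fun_prop
  have hcB := hcont B
  have hcN := hcont N
  -- the unit sphere
  have hK : IsCompact (Metric.sphere (0 : Fin d → ℝ) 1) := isCompact_sphere 0 1
  have hKne : (Metric.sphere (0 : Fin d → ℝ) 1).Nonempty :=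
    (NormedSpace.sphere_nonempty (E := Fin d → ℝ)).2 zero_le_one
  have hne : ∀ x ∈ Metric.sphere (0 : Fin d → ℝ) 1, x ≠ 0 := by
    intro x hx h0
    rw [mem_sphere_zero_iff_norm, h0, norm_zero] at hx
    exact zero_ne_one hx
  have hcF : ContinuousOn (fun x : Fin d → ℝ => B x x / N x x) (Metric.sphere 0 1) := by
    apply ContinuousOn.div hcB.continuousOn hcN.continuousOn
    intro x hx
    exact (hpos x (hne x hx)).ne'
  obtain ⟨x₀, hx₀, hmax⟩ := hK.exists_isMaxOn hKne hcF
  have hx₀0 : x₀ ≠ 0 := hne x₀ hx₀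
  have hNx₀ : 0 < N x₀ x₀ := hpos x₀ hx₀0
  set μ : ℝ := B x₀ x₀ / N x₀ x₀ with hμ
  -- the global bound
  have hbound : ∀ h, B h h ≤ μ * N h h := by
    intro h
    by_cases hh : h = 0
    · subst hh; simp
    · have hnorm : 0 < ‖h‖ := norm_pos_iff.2 hh
      have hmem : (‖h‖⁻¹ • h) ∈ Metric.sphere (0 : Fin d → ℝ) 1 := by
        rw [mem_sphere_zero_iff_norm, norm_smul, norm_inv, norm_norm]
        exact inv_mul_cancel₀ hnorm.ne'
      have h1 := hmax hmem
      simp only [Set.mem_ofPred_eq] at h1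
      have hNh : 0 < N h h := hpos h hh
      have e1 : B (‖h‖⁻¹ • h) (‖h‖⁻¹ • h) = ‖h‖⁻¹ * (‖h‖⁻¹ * B h h) := by
        simp [smul_eq_mul]
      have e2 : N (‖h‖⁻¹ • h) (‖h‖⁻¹ • h) = ‖h‖⁻¹ * (‖h‖⁻¹ * N h h) := by
        simp [smul_eq_mul]
      rw [e1, e2] at h1
      have e3 : ‖h‖⁻¹ * (‖h‖⁻¹ * B h h) / (‖h‖⁻¹ * (‖h‖⁻¹ * N h h)) = B h h / N h h := by
        field_simp
      rw [e3] at h1
      rw [div_le_iff₀ hNh] at h1
      exact h1
  -- normalise
  set s : ℝ := (Real.sqrt (N x₀ x₀))⁻¹ with hs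
  have hsq : Real.sqrt (N x₀ x₀) * Real.sqrt (N x₀ x₀) = N x₀ x₀ := Real.mul_self_sqrt hNx₀.le
  have hsqpos : 0 < Real.sqrt (N x₀ x₀) := Real.sqrt_pos.2 hNx₀
  have hss : s * s * N x₀ x₀ = 1 := by
    rw [hs]
    field_simp
    nlinarith [hsq]
  set g : Fin d → ℝ := s • x₀ with hg
  have hNg : N g g = 1 := by
    rw [hg]
    simp only [map_smul, LinearMap.smul_apply, smul_eq_mul]
    linarith [hss]
  have hBg : B g g = μ := by
    rw [hg]
    simp only [map_smul, LinearMap.smul_apply, smul_eq_mul]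
    have : B x₀ x₀ = μ * N x₀ x₀ := by
      rw [hμ]; field_simp
    rw [this]
    calc s * (s * (μ * N x₀ x₀)) = μ * (s * s * N x₀ x₀) := by ring
      _ = μ := by rw [hss, mul_one]
  refine ⟨μ, g, hNg, ?_, hbound⟩
  intro h
  -- the variational argument
  set b : ℝ := B g h - μ * N g h with hb
  set a : ℝ := μ * N h h - B h h with ha
  have ha0 : 0 ≤ a := by
    have := hbound h
    rw [ha]; linarith
  have key : ∀ t : ℝ, 2 * t * b ≤ a * t ^ 2 := by
    intro t
    have h1 := hbound (g + t • h)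
    simp only [map_add, map_smul, LinearMap.add_apply, LinearMap.smul_apply, smul_eq_mul] at h1
    rw [hB h g, hN h g, hBg, hNg] at h1
    rw [hb, ha]
    nlinarith [h1]
  by_contra hcon
  have hb0 : b ≠ 0 := by
    intro h0
    apply hcon
    rw [hb] at h0
    linarith
  have h2 := key (b / (a + 1))
  have ha1 : 0 < a + 1 := by linarith
  have hb2 : 0 < b ^ 2 := by positivity
  have e : a * (b / (a + 1)) ^ 2 = a / (a + 1) * (b ^ 2 / (a + 1)) := by
    field_simp
  have e' : 2 * (b / (a + 1)) * b = 2 * (b ^ 2 / (a + 1)) := by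
    field_simp
  rw [e, e'] at h2
  have hq : 0 < b ^ 2 / (a + 1) := by positivity
  have hlt : a / (a + 1) < 1 := by
    rw [div_lt_one ha1]; linarith
  nlinarith [h2, hq, hlt]

/-- **Rayleigh tool (maximum).** -/
theorem rayleigh_max {V : Type*} [AddCommGroup V] [Module ℝ V] [FiniteDimensional ℝ V]
    [Nontrivial V] (B N : V → V → ℝ)
    (hBadd : ∀ x y z, B (x + y) z = B x z + B y z)
    (hBsmul : ∀ (c : ℝ) x y, B (c • x) y = c * B x y)
    (hBsymm : ∀ x y, B x y = B y x)
    (hNadd : ∀ x y z, N (x + y) z = N x z + N y z)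
    (hNsmul : ∀ (c : ℝ) x y, N (c • x) y = c * N x y)
    (hNsymm : ∀ x y, N x y = N y x)
    (hpos : ∀ x, x ≠ 0 → 0 < N x x) :
    ∃ (μ : ℝ) (g : V), N g g = 1 ∧ (∀ h, B g h = μ * N g h) ∧ ∀ h, B h h ≤ μ * N h h := by
  classical
  set d := Module.finrank ℝ V with hd
  have hdpos : 0 < d := Module.finrank_pos
  let e : V ≃ₗ[ℝ] (Fin d → ℝ) := (Module.finBasis ℝ V).equivFun
  have mk : ∀ C : V → V → ℝ, (∀ x y z, C (x + y) z = C x z + C y z) →
      (∀ (c : ℝ) x y, C (c • x) y = c * C x y) → (∀ x y, C x y = C y x) →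
      ∃ C' : LinearMap.BilinForm ℝ (Fin d → ℝ), ∀ x y, C' x y = C (e.symm x) (e.symm y) := by
    intro C hadd hsmul hsymm
    refine ⟨LinearMap.mk₂ ℝ (fun x y => C (e.symm x) (e.symm y)) ?_ ?_ ?_ ?_, fun x y => rfl⟩
    · intro x y z
      simp only [map_add]
      exact hadd _ _ _
    · intro c x y
      simp only [map_smul, smul_eq_mul]
      exact hsmul _ _ _
    · intro x y z
      simp only [map_add]
      rw [hsymm, hadd, hsymm (e.symm y), hsymm (e.symm z)]
    · intro c x y
      simp only [map_smul, smul_eq_mul]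
      rw [hsymm, hsmul, hsymm]
  obtain ⟨B', hB'⟩ := mk B hBadd hBsmul hBsymm
  obtain ⟨N', hN'⟩ := mk N hNadd hNsmul hNsymm
  obtain ⟨μ, g, h1, h2, h3⟩ := rayleigh_coord hdpos B' N'
    (fun x y => by rw [hB', hB', hBsymm]) (fun x y => by rw [hN', hN', hNsymm])
    (fun x hx => by
      rw [hN']
      apply hpos
      intro h0
      apply hx
      have := congrArg e h0
      simpa using this)
  refine ⟨μ, e.symm g, ?_, ?_, ?_⟩
  · rw [← hN']; exact h1
  · intro h
    have := h2 (e h)
    rw [hB', hN'] at this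
    simpa using this
  · intro h
    have := h3 (e h)
    rw [hB', hN'] at this
    simpa using this

/-- **Rayleigh tool (minimum).** -/
theorem rayleigh_min {V : Type*} [AddCommGroup V] [Module ℝ V] [FiniteDimensional ℝ V]
    [Nontrivial V] (B N : V → V → ℝ)
    (hBadd : ∀ x y z, B (x + y) z = B x z + B y z)
    (hBsmul : ∀ (c : ℝ) x y, B (c • x) y = c * B x y)
    (hBsymm : ∀ x y, B x y = B y x)
    (hNadd : ∀ x y z, N (x + y) z = N x z + N y z)
    (hNsmul : ∀ (c : ℝ) x y, N (c • x) y = c * N x y)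
    (hNsymm : ∀ x y, N x y = N y x)
    (hpos : ∀ x, x ≠ 0 → 0 < N x x) :
    ∃ (μ : ℝ) (g : V), N g g = 1 ∧ (∀ h, B g h = μ * N g h) ∧ ∀ h, μ * N h h ≤ B h h := by
  obtain ⟨μ, g, h1, h2, h3⟩ := rayleigh_max (fun x y => - B x y) N
    (fun x y z => by simp only [hBadd]; ring)
    (fun c x y => by simp only [hBsmul]; ring)
    (fun x y => by simp only [hBsymm x y])
    hNadd hNsmul hNsymm hpos
  refine ⟨-μ, g, h1, ?_, ?_⟩
  · intro h
    have := h2 h
    linarith
  · intro h
    have := h3 h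
    linarith

end Crest.Agent.Helper5.S0453
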