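import Mathlib
import Crest.Agent.Helper5.S0453.Rayleigh

/-!
# The abstract Perron–Frobenius / Gram step of the 1-D lemma (helper for S0453)

`core`: a finite weighted set `Ω` with `ℕ`-valued coordinates `ℓ i` (`i : I`) such that each
coordinate attains exactly the values `0, …, K i - 1`, and such that for `i ≠ j` the conditional
law of `ℓ j` given `ℓ i = a` is stochastically nonincreasing in `a` (hypothesis `hneg`).
Then `Var (∑ i, g i (ℓ i)) ≤ 2 ∑ i, Var (g i (ℓ i))` for all `g` (in the `Z²`-scaled form).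
-/

set_option autoImplicit false

namespace Crest.Agent.Helper5.S0453

open Finset

section Cov

variable {Ω : Type*} [Fintype Ω] (w : Ω → ℝ)

/-- Unnormalised expectation. -/
def wE (F : Ω → ℝ) : ℝ := ∑ ω, w ω * F ω

/-- `Z²` times the covariance. -/
def wcov (F G : Ω → ℝ) : ℝ :=
  (∑ ω, w ω) * wE w (fun ω => F ω * G ω) - wE w F * wE w G

lemma wE_add (F G : Ω → ℝ) : wE w (fun ω => F ω + G ω) = wE w F + wE w G := by
  simp only [wE, mul_add, sum_add_distrib]

lemma wE_sub (F G : Ω → ℝ) : wE w (fun ω => F ω - G ω) = wE w F - wE w G := by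
  simp only [wE, mul_sub, sum_sub_distrib]

lemma wE_smul (c : ℝ) (F : Ω → ℝ) : wE w (fun ω => c * F ω) = c * wE w F := by
  simp only [wE, mul_sum]
  exact sum_congr rfl fun ω _ => by ring

lemma wE_neg (F : Ω → ℝ) : wE w (fun ω => - F ω) = - wE w F := by
  simp only [wE, mul_neg, sum_neg_distrib]

lemma wE_sum {ι : Type*} (s : Finset ι) (F : ι → Ω → ℝ) :
    wE w (fun ω => ∑ i ∈ s, F i ω) = ∑ i ∈ s, wE w (F i) := by
  simp only [wE, mul_sum]
  exact sum_comm

lemma wE_const (c : ℝ) : wE w (fun _ => c) = c * ∑ ω, w ω := by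
  simp only [wE, ← sum_mul]
  ring

lemma wE_zero : wE w (fun _ => (0 : ℝ)) = 0 := by
  simp [wE]

lemma wcov_comm (F G : Ω → ℝ) : wcov w F G = wcov w G F := by
  simp only [wcov]
  have : (fun ω => F ω * G ω) = fun ω => G ω * F ω := by
    funext ω; ring
  rw [this]; ring

lemma wcov_add_left (F F' G : Ω → ℝ) :
    wcov w (fun ω => F ω + F' ω) G = wcov w F G + wcov w F' G := by
  simp only [wcov, add_mul, wE_add]
  ring

lemma wcov_sub_left (F F' G : Ω → ℝ) :
    wcov w (fun ω => F ω - F' ω) G = wcov w F G - wcov w F' G := by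
  simp only [wcov, sub_mul, wE_sub]
  ring

lemma wcov_smul_left (c : ℝ) (F G : Ω → ℝ) :
    wcov w (fun ω => c * F ω) G = c * wcov w F G := by
  simp only [wcov, mul_assoc, wE_smul]
  ring

lemma wcov_add_right (F G G' : Ω → ℝ) :
    wcov w F (fun ω => G ω + G' ω) = wcov w F G + wcov w F G' := by
  rw [wcov_comm, wcov_add_left, wcov_comm w G, wcov_comm w G']

lemma wcov_sub_right (F G G' : Ω → ℝ) :
    wcov w F (fun ω => G ω - G' ω) = wcov w F G - wcov w F G' := by
  rw [wcov_comm, wcov_sub_left, wcov_comm w G, wcov_comm w G']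

lemma wcov_smul_right (c : ℝ) (F G : Ω → ℝ) :
    wcov w F (fun ω => c * G ω) = c * wcov w F G := by
  rw [wcov_comm, wcov_smul_left, wcov_comm]

lemma wcov_sum_left {ι : Type*} (s : Finset ι) (F : ι → Ω → ℝ) (G : Ω → ℝ) :
    wcov w (fun ω => ∑ i ∈ s, F i ω) G = ∑ i ∈ s, wcov w (F i) G := by
  simp only [wcov, sum_mul, wE_sum, mul_sum, sum_sub_distrib]

lemma wcov_sum_right {ι : Type*} (s : Finset ι) (F : Ω → ℝ) (G : ι → Ω → ℝ) :
    wcov w F (fun ω => ∑ i ∈ s, G i ω) = ∑ i ∈ s, wcov w F (G i) := by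
  rw [wcov_comm, wcov_sum_left]
  exact sum_congr rfl fun i _ => wcov_comm w _ _

lemma wcov_const_right (F : Ω → ℝ) (c : ℝ) : wcov w F (fun _ => c) = 0 := by
  simp only [wcov, wE_const]
  have : wE w (fun ω => F ω * c) = c * wE w F := by
    rw [← wE_smul]; congr 1; funext ω; ring
  rw [this]; ring

lemma two_mul_wcov (F G : Ω → ℝ) :
    2 * wcov w F G = ∑ ω, ∑ ω', w ω * w ω' * ((F ω - F ω') * (G ω - G ω')) := by
  have h : ∀ ω ω', w ω * w ω' * ((F ω - F ω') * (G ω - G ω')) =
      (w ω * (F ω * G ω)) * w ω' + w ω * (w ω' * (F ω' * G ω'))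
        - (w ω * F ω) * (w ω' * G ω') - (w ω * G ω) * (w ω' * F ω') := by
    intros; ring
  simp only [h, sum_sub_distrib, sum_add_distrib, ← sum_mul, ← mul_sum]
  simp only [wcov, wE]
  ring

lemma wcov_nonneg_of_mono (hw : ∀ ω, 0 ≤ w ω) (F G : Ω → ℝ)
    (h : ∀ ω ω', 0 ≤ (F ω - F ω') * (G ω - G ω')) : 0 ≤ wcov w F G := by
  have h2 := two_mul_wcov w F G
  have : 0 ≤ ∑ ω, ∑ ω', w ω * w ω' * ((F ω - F ω') * (G ω - G ω')) :=
    sum_nonneg fun ω _ => sum_nonneg fun ω' _ =>
      mul_nonneg (mul_nonneg (hw ω) (hw ω')) (h ω ω')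
  linarith

lemma wcov_self_nonneg (hw : ∀ ω, 0 ≤ w ω) (F : Ω → ℝ) : 0 ≤ wcov w F F :=
  wcov_nonneg_of_mono w hw F F fun _ _ => mul_self_nonneg _

lemma eq_of_wcov_self_eq_zero (hw : ∀ ω, 0 < w ω) (F : Ω → ℝ) (h : wcov w F F = 0)
    (ω ω' : Ω) : F ω = F ω' := by
  have h2 := two_mul_wcov w F F
  rw [h, mul_zero] at h2
  have hnn : ∀ ω ∈ (univ : Finset Ω), 0 ≤ ∑ ω', w ω * w ω' * ((F ω - F ω') * (F ω - F ω')) :=
    fun ω _ => sum_nonneg fun ω' _ =>
      mul_nonneg (mul_nonneg (hw ω).le (hw ω').le) (mul_self_nonneg _)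
  have h3 := (sum_eq_zero_iff_of_nonneg hnn).1 h2.symm ω (mem_univ _)
  have hnn' : ∀ ω' ∈ (univ : Finset Ω), 0 ≤ w ω * w ω' * ((F ω - F ω') * (F ω - F ω')) :=
    fun ω' _ => mul_nonneg (mul_nonneg (hw ω).le (hw ω').le) (mul_self_nonneg _)
  have h4 := (sum_eq_zero_iff_of_nonneg hnn').1 h3 ω' (mem_univ _)
  have h5 : (F ω - F ω') * (F ω - F ω') = 0 := by
    rcases mul_eq_zero.1 h4 with h6 | h6
    · exact absurd h6 (mul_pos (hw ω) (hw ω')).ne'
    · exact h6
  have h6 : F ω - F ω' = 0 := by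
    rcases mul_eq_zero.1 h5 with h7 | h7 <;> exact h7
  linarith

/-- Fibre expectation: the part of `wE w F` on `{ℓ = a}`. -/
def wEa (ℓ : Ω → ℕ) (a : ℕ) (F : Ω → ℝ) : ℝ := ∑ ω, if ℓ ω = a then w ω * F ω else 0

lemma wE_fibre (ℓ : Ω → ℕ) (K : ℕ) (hK : ∀ ω, ℓ ω < K) (ψ : ℕ → ℝ) (F : Ω → ℝ) :
    wE w (fun ω => ψ (ℓ ω) * F ω) = ∑ a ∈ range K, ψ a * wEa w ℓ a F := by
  simp only [wE, wEa, mul_sum]
  rw [sum_comm]
  refine sum_congr rfl fun ω _ => ?_
  rw [sum_eq_single (ℓ ω)]
  · simp only [if_true]; ring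
  · intro b _ hb
    rw [if_neg (Ne.symm hb), mul_zero]
  · intro h
    exact absurd (mem_range.2 (hK ω)) h

lemma wEa_add (ℓ : Ω → ℕ) (a : ℕ) (F G : Ω → ℝ) :
    wEa w ℓ a (fun ω => F ω + G ω) = wEa w ℓ a F + wEa w ℓ a G := by
  simp only [wEa, ← sum_add_distrib]
  refine sum_congr rfl fun ω _ => ?_
  split_ifs <;> ring

lemma wEa_sub (ℓ : Ω → ℕ) (a : ℕ) (F G : Ω → ℝ) :
    wEa w ℓ a (fun ω => F ω - G ω) = wEa w ℓ a F - wEa w ℓ a G := by
  simp only [wEa, ← sum_sub_distrib]
  refine sum_congr rfl fun ω _ => ?_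
  split_ifs <;> ring

lemma wEa_sum {ι : Type*} (s : Finset ι) (ℓ : Ω → ℕ) (a : ℕ) (F : ι → Ω → ℝ) :
    wEa w ℓ a (fun ω => ∑ i ∈ s, F i ω) = ∑ i ∈ s, wEa w ℓ a (F i) := by
  simp only [wEa]
  rw [sum_comm]
  refine sum_congr rfl fun ω _ => ?_
  split_ifs
  · rw [mul_sum]
  · simp

/-- `wEa` of a function of `ℓ` times `F`. -/
lemma wEa_mul_left (ℓ : Ω → ℕ) (a : ℕ) (ψ : ℕ → ℝ) (F : Ω → ℝ) :
    wEa w ℓ a (fun ω => ψ (ℓ ω) * F ω) = ψ a * wEa w ℓ a F := by
  simp only [wEa, mul_sum]
  refine sum_congr rfl fun ω _ => ?_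
  split_ifs with h
  · rw [h]; ring
  · ring

lemma wEa_indicator (ℓ : Ω → ℕ) (a : ℕ) (F : Ω → ℝ) :
    wE w (fun ω => F ω * (if ℓ ω = a then 1 else 0)) = wEa w ℓ a F := by
  simp only [wE, wEa]
  refine sum_congr rfl fun ω _ => ?_
  split_ifs <;> ring

lemma wEa_pos (hw : ∀ ω, 0 < w ω) (ℓ : Ω → ℕ) (a : ℕ) (h : ∃ ω, ℓ ω = a) :
    0 < wEa w ℓ a (fun _ => 1) := by
  obtain ⟨ω₀, hω₀⟩ := h
  simp only [wEa, mul_one]
  have hnn : ∀ ω ∈ (univ : Finset Ω), 0 ≤ (if ℓ ω = a then w ω else 0) := by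
    intro ω _; split_ifs
    · exact (hw ω).le
    · exact le_rfl
  refine lt_of_lt_of_le ?_ (single_le_sum hnn (mem_univ ω₀))
  rw [if_pos hω₀]
  exact hw ω₀

end Cov

section Core

variable {Ω I : Type*} [Fintype Ω] [Fintype I]

/-- Extension of a coordinate vector to a function on `ℕ`. -/
def gx (K : I → ℕ) (x : (i : I) → Fin (K i) → ℝ) (i : I) (a : ℕ) : ℝ :=
  if h : a < K i then x i ⟨a, h⟩ else 0

lemma gx_add (K : I → ℕ) (x y : (i : I) → Fin (K i) → ℝ) (i : I) (a : ℕ) :
    gx K (x + y) i a = gx K x i a + gx K y i a := by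
  unfold gx; split_ifs <;> simp

lemma gx_smul (K : I → ℕ) (c : ℝ) (x : (i : I) → Fin (K i) → ℝ) (i : I) (a : ℕ) :
    gx K (c • x) i a = c * gx K x i a := by
  unfold gx; split_ifs <;> simp

/-- The norm form `Z * ∑ i, E[X_i Y_i]`. -/
def Nf (w : Ω → ℝ) (ℓ : I → Ω → ℕ) (K : I → ℕ) (x y : (i : I) → Fin (K i) → ℝ) : ℝ :=
  (∑ ω, w ω) * ∑ i, wE w (fun ω => gx K x i (ℓ i ω) * gx K y i (ℓ i ω))

/-- The form `B` with `B x x ≤ N x x` equivalent to the target inequality. -/
def Bf (w : Ω → ℝ) (ℓ : I → Ω → ℕ) (K : I → ℕ) (x y : (i : I) → Fin (K i) → ℝ) : ℝ :=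
  wcov w (fun ω => ∑ i, gx K x i (ℓ i ω)) (fun ω => ∑ i, gx K y i (ℓ i ω)) - Nf w ℓ K x y
    + 2 * ∑ i, wE w (fun ω => gx K x i (ℓ i ω)) * wE w (fun ω => gx K y i (ℓ i ω))

lemma Nf_add (w : Ω → ℝ) (ℓ : I → Ω → ℕ) (K : I → ℕ) (x y z : (i : I) → Fin (K i) → ℝ) :
    Nf w ℓ K (x + y) z = Nf w ℓ K x z + Nf w ℓ K y z := by
  simp only [Nf, gx_add, add_mul, wE_add, sum_add_distrib, mul_add]

lemma Nf_smul (w : Ω → ℝ) (ℓ : I → Ω → ℕ) (K : I → ℕ) (c : ℝ)
    (x y : (i : I) → Fin (K i) → ℝ) : Nf w ℓ K (c • x) y = c * Nf w ℓ K x y := by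
  simp only [Nf, gx_smul, mul_assoc, wE_smul, ← mul_sum]
  ring

lemma Nf_symm (w : Ω → ℝ) (ℓ : I → Ω → ℕ) (K : I → ℕ) (x y : (i : I) → Fin (K i) → ℝ) :
    Nf w ℓ K x y = Nf w ℓ K y x := by
  simp only [Nf]
  congr 1
  refine sum_congr rfl fun i _ => ?_
  congr 1
  funext ω; ring

lemma Bf_add (w : Ω → ℝ) (ℓ : I → Ω → ℕ) (K : I → ℕ) (x y z : (i : I) → Fin (K i) → ℝ) :
    Bf w ℓ K (x + y) z = Bf w ℓ K x z + Bf w ℓ K y z := by
  simp only [Bf, Nf_add, gx_add, sum_add_distrib, wcov_add_left, wE_add, add_mul, mul_add]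
  ring

lemma Bf_smul (w : Ω → ℝ) (ℓ : I → Ω → ℕ) (K : I → ℕ) (c : ℝ)
    (x y : (i : I) → Fin (K i) → ℝ) : Bf w ℓ K (c • x) y = c * Bf w ℓ K x y := by
  simp only [Bf, Nf_smul, gx_smul, ← mul_sum, wcov_smul_left, wE_smul, mul_assoc]
  ring

lemma Bf_symm (w : Ω → ℝ) (ℓ : I → Ω → ℕ) (K : I → ℕ) (x y : (i : I) → Fin (K i) → ℝ) :
    Bf w ℓ K x y = Bf w ℓ K y x := by
  simp only [Bf]
  rw [wcov_comm, Nf_symm]
  congr 1
  congr 1
  refine sum_congr rfl fun i _ => ?_
  ring

/-- **Abstract Perron–Frobenius / Gram step.** -/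
theorem core [DecidableEq I] (w : Ω → ℝ) (hw : ∀ ω, 0 < w ω) (ℓ : I → Ω → ℕ) (K : I → ℕ)
    (hK : ∀ i a, a < K i ↔ ∃ ω, ℓ i ω = a)
    (hneg : ∀ i j, i ≠ j → ∀ φ : ℕ → ℝ, Monotone φ → ∀ a, a + 1 < K i →
      wEa w (ℓ i) (a + 1) (fun ω => φ (ℓ j ω)) * wEa w (ℓ i) a (fun _ => 1) ≤
        wEa w (ℓ i) a (fun ω => φ (ℓ j ω)) * wEa w (ℓ i) (a + 1) (fun _ => 1))
    (g : I → ℕ → ℝ) :
    wcov w (fun ω => ∑ i, g i (ℓ i ω)) (fun ω => ∑ i, g i (ℓ i ω)) ≤
      2 * ∑ i, wcov w (fun ω => g i (ℓ i ω)) (fun ω => g i (ℓ i ω)) := by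
  classical
  rcases isEmpty_or_nonempty Ω with hΩ | ⟨⟨ω₀⟩⟩
  · simp [wcov, wE]
  rcases isEmpty_or_nonempty I with hI | ⟨⟨i₀⟩⟩
  · simp [wcov, wE]
  have hlt : ∀ i ω, ℓ i ω < K i := fun i ω => (hK i _).2 ⟨ω, rfl⟩
  have hw0 : ∀ ω, 0 ≤ w ω := fun ω => (hw ω).le
  have hZ : 0 < ∑ ω, w ω := sum_pos (fun ω _ => hw ω) ⟨ω₀, mem_univ _⟩
  have hq : ∀ i a, a < K i → 0 < wEa w (ℓ i) a (fun _ => 1) :=
    fun i a ha => wEa_pos w hw (ℓ i) a ((hK i a).1 ha)
  -- reduction to the form inequality
  have key : ∀ x : (i : I) → Fin (K i) → ℝ, Bf w ℓ K x x ≤ Nf w ℓ K x x := by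
    have hNnn : ∀ x, 0 ≤ Nf w ℓ K x x := by
      intro x
      unfold Nf
      refine mul_nonneg hZ.le (sum_nonneg fun i _ => ?_)
      unfold wE
      exact sum_nonneg fun ω _ => mul_nonneg (hw0 ω) (mul_self_nonneg _)
    have hNpos : ∀ x, x ≠ 0 → 0 < Nf w ℓ K x x := by
      intro x hx
      obtain ⟨i, b, hb⟩ : ∃ i b, x i b ≠ 0 := by
        by_contra hcon
        push Not at hcon
        exact hx (funext fun i => funext fun b => hcon i b)
      obtain ⟨ω, hω⟩ := (hK i b.val).1 b.isLt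
      unfold Nf
      refine mul_pos hZ ?_
      have hnn : ∀ j ∈ (univ : Finset I),
          0 ≤ wE w (fun ω => gx K x j (ℓ j ω) * gx K x j (ℓ j ω)) :=
        fun j _ => sum_nonneg fun ω _ => mul_nonneg (hw0 ω) (mul_self_nonneg _)
      refine lt_of_lt_of_le ?_ (single_le_sum hnn (mem_univ i))
      unfold wE
      have hnn' : ∀ ω' ∈ (univ : Finset Ω),
          0 ≤ w ω' * (gx K x i (ℓ i ω') * gx K x i (ℓ i ω')) :=
        fun ω' _ => mul_nonneg (hw0 ω') (mul_self_nonneg _)
      refine lt_of_lt_of_le ?_ (single_le_sum hnn' (mem_univ ω))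
      have : gx K x i (ℓ i ω) = x i b := by
        unfold gx
        rw [dif_pos (hlt i ω)]
        congr 1
        exact Fin.ext hω
      rw [this]
      exact mul_pos (hw ω) (mul_self_pos.2 hb)
    have : Nontrivial ((i : I) → Fin (K i) → ℝ) := by
      refine ⟨⟨0, fun i _ => 1, ?_⟩⟩
      intro h
      have := congrFun (congrFun h i₀) ⟨ℓ i₀ ω₀, hlt i₀ ω₀⟩
      simp at this
    obtain ⟨μ, x, hN1, heig, hbound⟩ := rayleigh_max (Bf w ℓ K) (Nf w ℓ K) (Bf_add w ℓ K)
      (Bf_smul w ℓ K) (Bf_symm w ℓ K) (Nf_add w ℓ K) (Nf_smul w ℓ K) (Nf_symm w ℓ K) hNpos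
    by_cases hμ : μ ≤ 1
    · intro y
      calc Bf w ℓ K y y ≤ μ * Nf w ℓ K y y := hbound y
        _ ≤ 1 * Nf w ℓ K y y := mul_le_mul_of_nonneg_right hμ (hNnn y)
        _ = Nf w ℓ K y y := one_mul _
    · exfalso
      push Not at hμ
      -- Step 1: the maximiser is centred
      have hmean : ∀ i, wE w (fun ω => gx K x i (ℓ i ω)) = 0 := by
        intro i
        let e : (j : I) → Fin (K j) → ℝ := fun j _ => if j = i then 1 else 0
        have he : ∀ j ω, gx K e j (ℓ j ω) = if j = i then 1 else 0 := by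
          intro j ω
          unfold gx
          rw [dif_pos (hlt j ω)]
        have hA : wcov w (fun ω => ∑ j, gx K x j (ℓ j ω)) (fun ω => ∑ j, gx K e j (ℓ j ω)) = 0 := by
          have : (fun ω => ∑ j, gx K e j (ℓ j ω)) = fun _ => (1 : ℝ) := by
            funext ω
            simp only [he]
            simp
          rw [this, wcov_const_right]
        have hBN : Nf w ℓ K x e = (∑ ω, w ω) * wE w (fun ω => gx K x i (ℓ i ω)) := by
          unfold Nf
          congr 1
          rw [sum_eq_single i]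
          · congr 1
            funext ω
            rw [he, if_pos rfl, mul_one]
          · intro j _ hj
            have : (fun ω => gx K x j (ℓ j ω) * gx K e j (ℓ j ω)) = fun _ => (0 : ℝ) := by
              funext ω
              rw [he, if_neg hj, mul_zero]
            rw [this, wE_zero]
          · intro h
            exact absurd (mem_univ i) h
        have hC : ∑ j, wE w (fun ω => gx K x j (ℓ j ω)) * wE w (fun ω => gx K e j (ℓ j ω)) =
            wE w (fun ω => gx K x i (ℓ i ω)) * ∑ ω, w ω := by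
          rw [sum_eq_single i]
          · congr 1
            have : (fun ω => gx K e i (ℓ i ω)) = fun _ => (1 : ℝ) := by
              funext ω
              rw [he, if_pos rfl]
            rw [this, wE_const, one_mul]
          · intro j _ hj
            have : (fun ω => gx K e j (ℓ j ω)) = fun _ => (0 : ℝ) := by
              funext ω
              rw [he, if_neg hj]
            rw [this, wE_zero, mul_zero]
          · intro h
            exact absurd (mem_univ i) h
        have h := heig e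
        unfold Bf at h
        rw [hA, hC, hBN] at h
        have h' : (μ - 1) * ((∑ ω, w ω) * wE w (fun ω => gx K x i (ℓ i ω))) = 0 := by
          linarith
        rcases mul_eq_zero.1 h' with h1 | h1
        · linarith
        · rcases mul_eq_zero.1 h1 with h2 | h2
          · exact absurd h2 hZ.ne'
          · exact h2
      -- Step 2: the eigen-equation on the fibres
      have hfib : ∀ i a, a < K i →
          ∑ j, wEa w (ℓ i) a (fun ω => gx K x j (ℓ j ω)) =
            (1 + μ) * (gx K x i a * wEa w (ℓ i) a (fun _ => 1)) := by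
        intro i a ha
        let e : (j : I) → Fin (K j) → ℝ := fun j b => if j = i ∧ b.val = a then 1 else 0
        have he : ∀ j ω, gx K e j (ℓ j ω) = if j = i ∧ ℓ j ω = a then 1 else 0 := by
          intro j ω
          unfold gx
          rw [dif_pos (hlt j ω)]
        have hsum : (fun ω => ∑ j, gx K e j (ℓ j ω)) =
            fun ω => if ℓ i ω = a then (1 : ℝ) else 0 := by
          funext ω
          simp only [he]
          rw [sum_eq_single i]
          · simp
          · intro j _ hj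
            simp [hj]
          · intro h
            exact absurd (mem_univ i) h
        have hii : wEa w (ℓ i) a (fun ω => gx K x i (ℓ i ω)) =
            gx K x i a * wEa w (ℓ i) a (fun _ => 1) := by
          rw [← wEa_mul_left w (ℓ i) a (gx K x i) (fun _ => 1)]
          simp only [mul_one]
        have hA : wcov w (fun ω => ∑ j, gx K x j (ℓ j ω)) (fun ω => ∑ j, gx K e j (ℓ j ω)) =
            (∑ ω, w ω) * ∑ j, wEa w (ℓ i) a (fun ω => gx K x j (ℓ j ω)) := by
          rw [hsum, wcov_sum_left, mul_sum]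
          refine sum_congr rfl fun j _ => ?_
          unfold wcov
          rw [hmean j, zero_mul, sub_zero, wEa_indicator]
        have hBN : Nf w ℓ K x e =
            (∑ ω, w ω) * (gx K x i a * wEa w (ℓ i) a (fun _ => 1)) := by
          unfold Nf
          congr 1
          rw [sum_eq_single i]
          · rw [← hii, ← wEa_indicator]
            congr 1
            funext ω
            rw [he]
            simp
          · intro j _ hj
            have : (fun ω => gx K x j (ℓ j ω) * gx K e j (ℓ j ω)) = fun _ => (0 : ℝ) := by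
              funext ω
              rw [he, if_neg (fun h => hj h.1), mul_zero]
            rw [this, wE_zero]
          · intro h
            exact absurd (mem_univ i) h
        have hC : ∑ j, wE w (fun ω => gx K x j (ℓ j ω)) * wE w (fun ω => gx K e j (ℓ j ω)) = 0 := by
          refine sum_eq_zero fun j _ => ?_
          rw [hmean j, zero_mul]
        have h := heig e
        unfold Bf at h
        rw [hA, hC, hBN] at h
        have h' : (∑ ω, w ω) * (∑ j, wEa w (ℓ i) a (fun ω => gx K x j (ℓ j ω))) =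
            (∑ ω, w ω) * ((1 + μ) * (gx K x i a * wEa w (ℓ i) a (fun _ => 1))) := by
          linarith
        exact mul_left_cancel₀ hZ.ne' h'
      -- Step 3: total variation functions
      let Vf : I → ℕ → ℝ := fun j a => ∑ t ∈ range a, |gx K x j (t + 1) - gx K x j t|
      have hVsucc : ∀ j a, Vf j (a + 1) = Vf j a + |gx K x j (a + 1) - gx K x j a| :=
        fun j a => sum_range_succ _ _
      have hVmono : ∀ j, Monotone (Vf j) := fun j =>
        monotone_nat_of_le_succ fun a => by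
          rw [hVsucc]
          linarith [abs_nonneg (gx K x j (a + 1) - gx K x j a)]
      have hplus : ∀ j, Monotone (fun a => Vf j a + gx K x j a) := fun j =>
        monotone_nat_of_le_succ fun a => by
          show Vf j a + gx K x j a ≤ Vf j (a + 1) + gx K x j (a + 1)
          rw [hVsucc]
          linarith [neg_abs_le (gx K x j (a + 1) - gx K x j a)]
      have hminus : ∀ j, Monotone (fun a => Vf j a - gx K x j a) := fun j =>
        monotone_nat_of_le_succ fun a => by
          show Vf j a - gx K x j a ≤ Vf j (a + 1) - gx K x j (a + 1)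
          rw [hVsucc]
          linarith [le_abs_self (gx K x j (a + 1) - gx K x j a)]
      -- Steps 3-5: the per-coordinate inequality
      have hstep : ∀ i, μ * wcov w (fun ω => Vf i (ℓ i ω)) (fun ω => Vf i (ℓ i ω)) ≤
          - ∑ j ∈ univ.erase i, wcov w (fun ω => Vf i (ℓ i ω)) (fun ω => Vf j (ℓ j ω)) := by
        intro i
        let q : ℕ → ℝ := fun a => wEa w (ℓ i) a (fun _ => 1)
        let Vs : ℕ → ℝ := fun a => ∑ j ∈ univ.erase i, wEa w (ℓ i) a (fun ω => Vf j (ℓ j ω))
        let Df : ℕ → ℝ := fun a => - Vs a / q a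
        have hqpos : ∀ a, a < K i → 0 < q a := fun a ha => hq i a ha
        have hcs : ∀ a, a < K i →
            ∑ j ∈ univ.erase i, wEa w (ℓ i) a (fun ω => gx K x j (ℓ j ω)) =
              μ * (gx K x i a * q a) := by
          intro a ha
          rw [sum_erase_eq_sub (mem_univ i), hfib i a ha]
          have hii : wEa w (ℓ i) a (fun ω => gx K x i (ℓ i ω)) =
              gx K x i a * wEa w (ℓ i) a (fun _ => 1) := by
            rw [← wEa_mul_left w (ℓ i) a (gx K x i) (fun _ => 1)]
            simp only [mul_one]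
          rw [hii]
          ring
        have hinc : ∀ a, a + 1 < K i →
            μ * (q a * q (a + 1)) * |gx K x i (a + 1) - gx K x i a| ≤
              Vs a * q (a + 1) - Vs (a + 1) * q a := by
          intro a ha
          have ha' : a < K i := by omega
          have n1 : (Vs (a + 1) + μ * (gx K x i (a + 1) * q (a + 1))) * q a ≤
              (Vs a + μ * (gx K x i a * q a)) * q (a + 1) := by
            rw [← hcs a ha', ← hcs (a + 1) ha]
            show (∑ j ∈ univ.erase i, wEa w (ℓ i) (a + 1) (fun ω => Vf j (ℓ j ω)) +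
                ∑ j ∈ univ.erase i, wEa w (ℓ i) (a + 1) (fun ω => gx K x j (ℓ j ω))) * q a ≤
              (∑ j ∈ univ.erase i, wEa w (ℓ i) a (fun ω => Vf j (ℓ j ω)) +
                ∑ j ∈ univ.erase i, wEa w (ℓ i) a (fun ω => gx K x j (ℓ j ω))) * q (a + 1)
            rw [← sum_add_distrib, ← sum_add_distrib, sum_mul, sum_mul]
            refine sum_le_sum fun j hj => ?_
            have hji : i ≠ j := fun h => (mem_erase.1 hj).1 h.symm
            have := hneg i j hji _ (hplus j) a ha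
            rw [wEa_add, wEa_add] at this
            exact this
          have n2 : (Vs (a + 1) - μ * (gx K x i (a + 1) * q (a + 1))) * q a ≤
              (Vs a - μ * (gx K x i a * q a)) * q (a + 1) := by
            rw [← hcs a ha', ← hcs (a + 1) ha]
            show (∑ j ∈ univ.erase i, wEa w (ℓ i) (a + 1) (fun ω => Vf j (ℓ j ω)) -
                ∑ j ∈ univ.erase i, wEa w (ℓ i) (a + 1) (fun ω => gx K x j (ℓ j ω))) * q a ≤
              (∑ j ∈ univ.erase i, wEa w (ℓ i) a (fun ω => Vf j (ℓ j ω)) -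
                ∑ j ∈ univ.erase i, wEa w (ℓ i) a (fun ω => gx K x j (ℓ j ω))) * q (a + 1)
            rw [← sum_sub_distrib, ← sum_sub_distrib, sum_mul, sum_mul]
            refine sum_le_sum fun j hj => ?_
            have hji : i ≠ j := fun h => (mem_erase.1 hj).1 h.symm
            have := hneg i j hji _ (hminus j) a ha
            rw [wEa_sub, wEa_sub] at this
            exact this
          rcases abs_cases (gx K x i (a + 1) - gx K x i a) with ⟨h, _⟩ | ⟨h, _⟩
          · rw [h]
            linarith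
          · rw [h]
            linarith
        have hDf : ∀ a, a + 1 < K i →
            μ * |gx K x i (a + 1) - gx K x i a| ≤ Df (a + 1) - Df a := by
          intro a ha
          have ha' : a < K i := by omega
          have hq1 := hqpos a ha'
          have hq2 := hqpos (a + 1) ha
          have e : Df (a + 1) - Df a =
              (Vs a * q (a + 1) - Vs (a + 1) * q a) / (q a * q (a + 1)) := by
            show - Vs (a + 1) / q (a + 1) - (- Vs a / q a) = _
            field_simp
            ring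
          rw [e, le_div_iff₀ (mul_pos hq1 hq2)]
          have := hinc a ha
          linarith
        have hΦ : ∀ a b, a ≤ b → b < K i → Df a - μ * Vf i a ≤ Df b - μ * Vf i b := by
          intro a b hab
          induction b, hab using Nat.le_induction with
          | base => intro _; exact le_rfl
          | succ b hab ih =>
            intro hb
            have h1 := ih (by omega)
            have h2 := hDf b hb
            rw [hVsucc]
            linarith
        have hcheb : 0 ≤ wcov w (fun ω => Vf i (ℓ i ω))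
            (fun ω => Df (ℓ i ω) - μ * Vf i (ℓ i ω)) := by
          refine wcov_nonneg_of_mono w hw0 _ _ fun ω ω' => ?_
          rcases le_total (ℓ i ω) (ℓ i ω') with h | h
          · exact mul_nonneg_of_nonpos_of_nonpos (sub_nonpos.2 (hVmono i h))
              (sub_nonpos.2 (hΦ _ _ h (hlt i ω')))
          · exact mul_nonneg (sub_nonneg.2 (hVmono i h)) (sub_nonneg.2 (hΦ _ _ h (hlt i ω)))
        rw [wcov_sub_right, wcov_smul_right] at hcheb
        have hgen : ∀ ψ : ℕ → ℝ, wE w (fun ω => ψ (ℓ i ω) * Df (ℓ i ω)) =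
            - ∑ j ∈ univ.erase i, wE w (fun ω => ψ (ℓ i ω) * Vf j (ℓ j ω)) := by
          intro ψ
          have e1 : wE w (fun ω => ψ (ℓ i ω) * Df (ℓ i ω)) =
              ∑ a ∈ range (K i), (ψ a * Df a) * q a := by
            have := wE_fibre w (ℓ i) (K i) (hlt i) (fun a => ψ a * Df a) (fun _ => 1)
            simp only [mul_one] at this
            exact this
          rw [e1]
          have e2 : ∀ j, wE w (fun ω => ψ (ℓ i ω) * Vf j (ℓ j ω)) =
              ∑ a ∈ range (K i), ψ a * wEa w (ℓ i) a (fun ω => Vf j (ℓ j ω)) :=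
            fun j => wE_fibre w (ℓ i) (K i) (hlt i) ψ _
          simp only [e2]
          rw [sum_comm, ← sum_neg_distrib]
          refine sum_congr rfl fun a ha => ?_
          have hqa := hqpos a (mem_range.1 ha)
          rw [← mul_sum]
          show ψ a * (- Vs a / q a) * q a = - (ψ a * Vs a)
          field_simp
        have hcovD : wcov w (fun ω => Vf i (ℓ i ω)) (fun ω => Df (ℓ i ω)) =
            - ∑ j ∈ univ.erase i, wcov w (fun ω => Vf i (ℓ i ω)) (fun ω => Vf j (ℓ j ω)) := by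
          unfold wcov
          rw [hgen (Vf i)]
          have h1 := hgen (fun _ => 1)
          simp only [one_mul] at h1
          rw [h1]
          simp only [sum_sub_distrib, ← mul_sum]
          ring
        rw [hcovD] at hcheb
        linarith
      -- Step 6: Gram positivity
      have hT0 : ∀ i, 0 ≤ wcov w (fun ω => Vf i (ℓ i ω)) (fun ω => Vf i (ℓ i ω)) :=
        fun i => wcov_self_nonneg w hw0 _
      have hgram : 0 ≤ ∑ i, (wcov w (fun ω => Vf i (ℓ i ω)) (fun ω => Vf i (ℓ i ω)) +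
          ∑ j ∈ univ.erase i, wcov w (fun ω => Vf i (ℓ i ω)) (fun ω => Vf j (ℓ j ω))) := by
        have h0 := wcov_self_nonneg w hw0 (fun ω => ∑ i, Vf i (ℓ i ω))
        rw [wcov_sum_left] at h0
        have : ∀ i, wcov w (fun ω => Vf i (ℓ i ω)) (fun ω => ∑ j, Vf j (ℓ j ω)) =
            wcov w (fun ω => Vf i (ℓ i ω)) (fun ω => Vf i (ℓ i ω)) +
              ∑ j ∈ univ.erase i, wcov w (fun ω => Vf i (ℓ i ω)) (fun ω => Vf j (ℓ j ω)) := by
          intro i
          rw [wcov_sum_right]
          exact (add_sum_erase _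
            (fun j => wcov w (fun ω => Vf i (ℓ i ω)) (fun ω => Vf j (ℓ j ω))) (mem_univ i)).symm
        simp only [this] at h0
        exact h0
      have hsum : μ * ∑ i, wcov w (fun ω => Vf i (ℓ i ω)) (fun ω => Vf i (ℓ i ω)) ≤
          ∑ i, wcov w (fun ω => Vf i (ℓ i ω)) (fun ω => Vf i (ℓ i ω)) := by
        rw [sum_add_distrib] at hgram
        have h1 : μ * ∑ i, wcov w (fun ω => Vf i (ℓ i ω)) (fun ω => Vf i (ℓ i ω)) ≤
            - ∑ i, ∑ j ∈ univ.erase i,
              wcov w (fun ω => Vf i (ℓ i ω)) (fun ω => Vf j (ℓ j ω)) := by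
          rw [mul_sum, ← sum_neg_distrib]
          exact sum_le_sum fun i _ => hstep i
        linarith
      have hTzero : ∑ i, wcov w (fun ω => Vf i (ℓ i ω)) (fun ω => Vf i (ℓ i ω)) = 0 := by
        have h0 : 0 ≤ ∑ i, wcov w (fun ω => Vf i (ℓ i ω)) (fun ω => Vf i (ℓ i ω)) :=
          sum_nonneg fun i _ => hT0 i
        nlinarith
      have hVconst : ∀ i ω ω', Vf i (ℓ i ω) = Vf i (ℓ i ω') := by
        intro i
        have := (sum_eq_zero_iff_of_nonneg (fun i _ => hT0 i)).1 hTzero i (mem_univ i)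
        exact eq_of_wcov_self_eq_zero w hw _ this
      have hgconst : ∀ i a, a < K i → gx K x i a = gx K x i 0 := by
        intro i a
        induction a with
        | zero => intro _; rfl
        | succ a ih =>
          intro ha
          obtain ⟨ω, hω⟩ := (hK i a).1 (by omega)
          obtain ⟨ω', hω'⟩ := (hK i (a + 1)).1 ha
          have h1 := hVconst i ω ω'
          rw [hω, hω', hVsucc] at h1
          have h2 : |gx K x i (a + 1) - gx K x i a| = 0 := by linarith
          have h3 := abs_eq_zero.1 h2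
          rw [← ih (by omega)]
          linarith
      have hXzero : ∀ i ω, gx K x i (ℓ i ω) = 0 := by
        intro i ω
        have h0 : gx K x i 0 = 0 := by
          have h1 := hmean i
          have h2 : (fun ω => gx K x i (ℓ i ω)) = fun _ => gx K x i 0 := by
            funext ω
            exact hgconst i _ (hlt i ω)
          rw [h2, wE_const] at h1
          rcases mul_eq_zero.1 h1 with h3 | h3
          · exact h3
          · exact absurd h3 hZ.ne'
        rw [hgconst i _ (hlt i ω), h0]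
      have hN0 : Nf w ℓ K x x = 0 := by
        unfold Nf
        simp only [hXzero, mul_zero, wE_zero, sum_const_zero]
      rw [hN0] at hN1
      exact zero_ne_one hN1
  -- transfer
  let x : (i : I) → Fin (K i) → ℝ := fun i b => g i b.val
  have hx : ∀ i ω, gx K x i (ℓ i ω) = g i (ℓ i ω) := by
    intro i ω
    unfold gx
    rw [dif_pos (hlt i ω)]
  have h1 := key x
  simp only [Bf, Nf, hx] at h1
  have h2 : ∑ i, wcov w (fun ω => g i (ℓ i ω)) (fun ω => g i (ℓ i ω)) =
      (∑ ω, w ω) * ∑ i, wE w (fun ω => g i (ℓ i ω) * g i (ℓ i ω)) -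
        ∑ i, wE w (fun ω => g i (ℓ i ω)) * wE w (fun ω => g i (ℓ i ω)) := by
    simp only [wcov, sum_sub_distrib, mul_sum]
  rw [h2]
  linarith

end Core

end Crest.Agent.Helper5.S0453
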