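import Mathlib
import Crest.Agent.Helper5.S0453.OneDimCore

/-!
# The 1-D lemma for S0453

`oneDim`: for three nonnegative log-concave sequences `p i : ℕ → ℝ` with interval supports and the
product weight `∏ i, p i (l i)` on the lattice simplex `{l : Fin 3 → ℕ | ∑ i, l i = m}`:
`Var (∑ i, g i (l i)) ≤ 2 * ∑ i, Var (g i (l i))` (in the `Z²`-scaled form, no division).
-/

set_option autoImplicit false

namespace Crest.Agent.Helper5.S0453

open Finset

section LogConcave

variable (p : ℕ → ℝ) (hp : ∀ k, 0 ≤ p k) (hlc : ∀ k, p k * p (k + 2) ≤ p (k + 1) ^ 2)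
  (hint : ∀ a b c, a ≤ b → b ≤ c → 0 < p a → 0 < p c → 0 < p b)

include hp hlc hint in
lemma lc_step : ∀ A B, A ≤ B → p A * p (B + 1) ≤ p B * p (A + 1) := by
  intro A B hAB
  induction B, hAB using Nat.le_induction with
  | base => exact le_rfl
  | succ B hAB ih =>
    by_cases h1 : p A = 0
    · rw [h1, zero_mul]; exact mul_nonneg (hp _) (hp _)
    by_cases h2 : p (B + 1 + 1) = 0
    · rw [h2, mul_zero]; exact mul_nonneg (hp _) (hp _)
    have hA : 0 < p A := lt_of_le_of_ne (hp A) (Ne.symm h1)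
    have hB2 : 0 < p (B + 1 + 1) := lt_of_le_of_ne (hp _) (Ne.symm h2)
    have hB : 0 < p B := hint A B (B + 1 + 1) hAB (by omega) hA hB2
    have hl := hlc B
    have e1 : p B * (p A * p (B + 1 + 1)) ≤ p B * (p (B + 1) * p (A + 1)) := by
      have a1 : p A * (p B * p (B + 2)) ≤ p A * p (B + 1) ^ 2 :=
        mul_le_mul_of_nonneg_left hl (hp A)
      have a2 : p (B + 1) * (p A * p (B + 1)) ≤ p (B + 1) * (p B * p (A + 1)) :=
        mul_le_mul_of_nonneg_left ih (hp _)
      have e : B + 1 + 1 = B + 2 := rfl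
      rw [e]
      linarith [a1, a2]
    exact le_of_mul_le_mul_left e1 hB

include hp hlc hint in
lemma lc_gen : ∀ δ A B, A ≤ B → p A * p (B + δ) ≤ p B * p (A + δ) := by
  intro δ
  induction δ with
  | zero =>
    intro A B _
    simp only [add_zero]
    exact le_of_eq (mul_comm _ _)
  | succ δ ih =>
    intro A B hAB
    by_cases h1 : p A = 0
    · rw [h1, zero_mul]; exact mul_nonneg (hp _) (hp _)
    by_cases h2 : p (B + (δ + 1)) = 0
    · rw [h2, mul_zero]; exact mul_nonneg (hp _) (hp _)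
    have hA : 0 < p A := lt_of_le_of_ne (hp A) (Ne.symm h1)
    have hB2 : 0 < p (B + (δ + 1)) := lt_of_le_of_ne (hp _) (Ne.symm h2)
    have hAd : 0 < p (A + δ) := hint A (A + δ) (B + (δ + 1)) (by omega) (by omega) hA hB2
    have hBd : 0 < p (B + δ) := hint A (B + δ) (B + (δ + 1)) (by omega) (by omega) hA hB2
    have i1 := ih A B hAB
    have i2 := lc_step p hp hlc hint (A + δ) (B + δ) (by omega)
    have e : (p (A + δ) * p (B + δ)) * (p A * p (B + (δ + 1))) ≤
        (p (A + δ) * p (B + δ)) * (p B * p (A + (δ + 1))) := by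
      have := mul_le_mul i1 i2 (mul_nonneg (hp _) (hp _)) (mul_nonneg (hp _) (hp _))
      have e1 : B + δ + 1 = B + (δ + 1) := by ring
      have e2 : A + δ + 1 = A + (δ + 1) := by ring
      rw [e1, e2] at this
      linarith
    exact le_of_mul_le_mul_left e (mul_pos hAd hBd)

end LogConcave

/-- Monotone likelihood ratio implies stochastic domination (finite sums form). -/
lemma lr_ineq (s : Finset ℕ) (U V φ : ℕ → ℝ) (hφ : Monotone φ)
    (hLR : ∀ x ∈ s, ∀ x' ∈ s, x ≤ x' → U x' * V x ≤ U x * V x') :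
    (∑ x ∈ s, U x * φ x) * (∑ x ∈ s, V x) ≤ (∑ x ∈ s, V x * φ x) * (∑ x ∈ s, U x) := by
  have key : 2 * ((∑ x ∈ s, V x * φ x) * (∑ x ∈ s, U x) -
      (∑ x ∈ s, U x * φ x) * (∑ x ∈ s, V x)) =
      ∑ x ∈ s, ∑ x' ∈ s, (V x * U x' - U x * V x') * (φ x - φ x') := by
    have h : ∀ x x', (V x * U x' - U x * V x') * (φ x - φ x') =
        (V x * φ x) * U x' - V x * (U x' * φ x') - (U x * φ x) * V x' + U x * (V x' * φ x') := by
      intros; ring
    simp only [h, sum_sub_distrib, sum_add_distrib, ← sum_mul, ← mul_sum]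
    ring
  have hnn : 0 ≤ ∑ x ∈ s, ∑ x' ∈ s, (V x * U x' - U x * V x') * (φ x - φ x') := by
    refine sum_nonneg fun x hx => sum_nonneg fun x' hx' => ?_
    rcases le_total x x' with h | h
    · exact mul_nonneg_of_nonpos_of_nonpos (by have := hLR x hx x' hx' h; linarith)
        (sub_nonpos.2 (hφ h))
    · exact mul_nonneg (by have := hLR x' hx' x hx h; linarith) (sub_nonneg.2 (hφ h))
  linarith

section Simplex

lemma fin3_univ : ∀ i j k : Fin 3, i ≠ j → i ≠ k → j ≠ k →
    (univ : Finset (Fin 3)) = {i, j, k} := by decide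

lemma fin3_third : ∀ i j : Fin 3, i ≠ j → ∃ k, i ≠ k ∧ j ≠ k := by decide

lemma fin3_sum {M : Type*} [AddCommMonoid M] {i j k : Fin 3} (hij : i ≠ j) (hik : i ≠ k)
    (hjk : j ≠ k) (f : Fin 3 → M) : ∑ t, f t = f i + f j + f k := by
  rw [fin3_univ i j k hij hik hjk, sum_insert (by simp [hij, hik]), sum_pair hjk, add_assoc]

lemma fin3_prod {M : Type*} [CommMonoid M] {i j k : Fin 3} (hij : i ≠ j) (hik : i ≠ k)
    (hjk : j ≠ k) (f : Fin 3 → M) : ∏ t, f t = f i * f j * f k := by
  rw [fin3_univ i j k hij hik hjk, prod_insert (by simp [hij, hik]), prod_pair hjk, mul_assoc]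

/-- The tuple with value `a` at `i`, `x` at `j` and `r` elsewhere. -/
def tup (i j : Fin 3) (a x r : ℕ) : Fin 3 → ℕ :=
  fun t => if t = i then a else if t = j then x else r

lemma tup_i (i j : Fin 3) (a x r : ℕ) : tup i j a x r i = a := by simp [tup]

lemma tup_j {i j : Fin 3} (hij : i ≠ j) (a x r : ℕ) : tup i j a x r j = x := by
  simp [tup, hij.symm]

lemma tup_k {i j k : Fin 3} (hik : i ≠ k) (hjk : j ≠ k) (a x r : ℕ) :
    tup i j a x r k = r := by
  simp [tup, hik.symm, hjk.symm]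

lemma sum_fibre {i j k : Fin 3} (hij : i ≠ j) (hik : i ≠ k) (hjk : j ≠ k) (m a : ℕ)
    (ha : a ≤ m) (F : (Fin 3 → ℕ) → ℝ) :
    ∑ l ∈ Finset.Nat.antidiagonalTuple 3 m, (if l i = a then F l else 0) =
      ∑ x ∈ range (m - a + 1), F (tup i j a x (m - a - x)) := by
  rw [← sum_filter]
  have hleft : ∀ l ∈ (Finset.Nat.antidiagonalTuple 3 m).filter (fun l => l i = a),
      tup i j a (l j) (m - a - l j) = l := by
    intro l hl
    rw [mem_filter, Finset.Nat.mem_antidiagonalTuple, fin3_sum hij hik hjk] at hl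
    funext t
    have ht : t = i ∨ t = j ∨ t = k := by
      have := mem_univ t
      rw [fin3_univ i j k hij hik hjk] at this
      simpa using this
    rcases ht with rfl | rfl | rfl
    · rw [tup_i]; exact hl.2.symm
    · rw [tup_j hij]
    · rw [tup_k hik hjk]; omega
  refine sum_nbij' (fun l => l j) (fun x => tup i j a x (m - a - x)) ?_ ?_ hleft ?_ ?_
  · intro l hl
    rw [mem_filter, Finset.Nat.mem_antidiagonalTuple, fin3_sum hij hik hjk] at hl
    rw [mem_range]; omega
  · intro x hx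
    rw [mem_range] at hx
    rw [mem_filter, Finset.Nat.mem_antidiagonalTuple, fin3_sum hij hik hjk, tup_i, tup_j hij,
      tup_k hik hjk]
    exact ⟨by omega, rfl⟩
  · intro x _
    exact tup_j hij _ _ _
  · intro l hl
    rw [hleft l hl]

end Simplex

section Rank

/-- Rank of `a` relative to the finite set `A`: the number of elements of `A` below `a`. -/
def rk (A : Finset ℕ) (a : ℕ) : ℕ := (A.filter (· < a)).card

lemma rk_mono (A : Finset ℕ) : Monotone (rk A) := by
  intro a b hab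
  exact card_le_card (fun x hx => by
    rw [mem_filter] at hx ⊢
    exact ⟨hx.1, lt_of_lt_of_le hx.2 hab⟩)

lemma rk_lt_of_lt {A : Finset ℕ} {a b : ℕ} (ha : a ∈ A) (hab : a < b) : rk A a < rk A b := by
  apply card_lt_card
  rw [ssubset_iff_of_subset (fun x hx => by
    rw [mem_filter] at hx ⊢
    exact ⟨hx.1, lt_trans hx.2 hab⟩)]
  exact ⟨a, mem_filter.2 ⟨ha, hab⟩, fun h => lt_irrefl a (mem_filter.1 h).2⟩

lemma rk_lt_card {A : Finset ℕ} {a : ℕ} (ha : a ∈ A) : rk A a < A.card := by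
  apply card_lt_card
  rw [ssubset_iff_of_subset (filter_subset _ _)]
  exact ⟨a, ha, fun h => lt_irrefl a (mem_filter.1 h).2⟩

lemma rk_inj {A : Finset ℕ} {a b : ℕ} (ha : a ∈ A) (hb : b ∈ A) (h : rk A a = rk A b) :
    a = b := by
  rcases lt_trichotomy a b with h1 | h1 | h1
  · exact absurd h (rk_lt_of_lt ha h1).ne
  · exact h1
  · exact absurd h (rk_lt_of_lt hb h1).ne'

lemma rk_surj {A : Finset ℕ} {r : ℕ} (hr : r < A.card) : ∃ a ∈ A, rk A a = r := by
  have himg : A.image (rk A) = range A.card := by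
    apply eq_of_subset_of_card_le
    · intro x hx
      obtain ⟨a, ha, rfl⟩ := mem_image.1 hx
      exact mem_range.2 (rk_lt_card ha)
    · rw [card_range, card_image_of_injOn]
      intro a ha b hb h
      exact rk_inj ha hb h
  have : r ∈ A.image (rk A) := by rw [himg]; exact mem_range.2 hr
  obtain ⟨a, ha, rfl⟩ := mem_image.1 this
  exact ⟨a, ha, rfl⟩

end Rank

section Final

/-- The product weight. -/
def wt (p : Fin 3 → ℕ → ℝ) (l : Fin 3 → ℕ) : ℝ := ∏ t, p t (l t)

variable (p : Fin 3 → ℕ → ℝ) (hp : ∀ i k, 0 ≤ p i k)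
  (hlc : ∀ i k, p i k * p i (k + 2) ≤ p i (k + 1) ^ 2)
  (hint : ∀ i a b c, a ≤ b → b ≤ c → 0 < p i a → 0 < p i c → 0 < p i b)

include hp hlc hint in
/-- Stochastic monotonicity on the simplex: the law of `l j` given `l i = b` decreases
(in the stochastic order) when `b` increases. -/
lemma negP (m : ℕ) {i j : Fin 3} (hij : i ≠ j) (φ : ℕ → ℝ) (hφ : Monotone φ) (b b' : ℕ)
    (hbb : b < b') :
    (∑ l ∈ Finset.Nat.antidiagonalTuple 3 m, if l i = b' then wt p l * φ (l j) else 0) *
      (∑ l ∈ Finset.Nat.antidiagonalTuple 3 m, if l i = b then wt p l else 0) ≤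
    (∑ l ∈ Finset.Nat.antidiagonalTuple 3 m, if l i = b then wt p l * φ (l j) else 0) *
      (∑ l ∈ Finset.Nat.antidiagonalTuple 3 m, if l i = b' then wt p l else 0) := by
  obtain ⟨k, hik, hjk⟩ := fin3_third i j hij
  by_cases hb' : b' ≤ m
  · have hb : b ≤ m := by omega
    rw [sum_fibre hij hik hjk m b' hb', sum_fibre hij hik hjk m b hb,
      sum_fibre hij hik hjk m b hb, sum_fibre hij hik hjk m b' hb']
    have hwt : ∀ a x r, wt p (tup i j a x r) = p i a * p j x * p k r := by
      intro a x r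
      unfold wt
      rw [fin3_prod hij hik hjk, tup_i, tup_j hij, tup_k hik hjk]
    simp only [hwt, tup_j hij]
    set s := m - b with hs
    set s' := m - b' with hs'
    have hss : s' < s := by omega
    let U : ℕ → ℝ := fun x => if x ≤ s' then p j x * p k (s' - x) else 0
    let V : ℕ → ℝ := fun x => p j x * p k (s - x)
    have hU : ∀ F : ℕ → ℝ, ∑ x ∈ range (s' + 1), p i b' * p j x * p k (s' - x) * F x =
        p i b' * ∑ x ∈ range (s + 1), U x * F x := by
      intro F
      rw [mul_sum]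
      have hsub : range (s' + 1) ⊆ range (s + 1) := range_subset_range.2 (by omega)
      rw [← sum_subset hsub]
      · refine sum_congr rfl fun x hx => ?_
        have : x ≤ s' := by have := mem_range.1 hx; omega
        show _ = p i b' * ((if x ≤ s' then p j x * p k (s' - x) else 0) * F x)
        rw [if_pos this]; ring
      · intro x _ hx
        have : ¬ x ≤ s' := by rw [mem_range] at hx; omega
        show p i b' * ((if x ≤ s' then p j x * p k (s' - x) else 0) * F x) = 0
        rw [if_neg this]; ring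
    have hV : ∀ F : ℕ → ℝ, ∑ x ∈ range (s + 1), p i b * p j x * p k (s - x) * F x =
        p i b * ∑ x ∈ range (s + 1), V x * F x := by
      intro F
      rw [mul_sum]
      refine sum_congr rfl fun x _ => ?_
      show _ = p i b * (p j x * p k (s - x) * F x)
      ring
    have hU1 := hU (fun _ => 1)
    have hV1 := hV (fun _ => 1)
    simp only [mul_one] at hU1 hV1
    rw [hU φ, hV φ, hU1, hV1]
    have hLR : ∀ x ∈ range (s + 1), ∀ x' ∈ range (s + 1), x ≤ x' →
        U x' * V x ≤ U x * V x' := by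
      intro x hx x' hx' hxx
      rw [mem_range] at hx hx'
      show (if x' ≤ s' then p j x' * p k (s' - x') else 0) * (p j x * p k (s - x)) ≤
        (if x ≤ s' then p j x * p k (s' - x) else 0) * (p j x' * p k (s - x'))
      by_cases h1 : x' ≤ s'
      · have h2 : x ≤ s' := le_trans hxx h1
        rw [if_pos h1, if_pos h2]
        have key := lc_gen (p k) (hp k) (hlc k) (hint k) (s - s') (s' - x') (s' - x) (by omega)
        have e1 : s' - x + (s - s') = s - x := by omega
        have e2 : s' - x' + (s - s') = s - x' := by omega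
        rw [e1, e2] at key
        have := mul_le_mul_of_nonneg_left key (mul_nonneg (hp j x) (hp j x'))
        linarith
      · rw [if_neg h1, zero_mul]
        split_ifs
        · exact mul_nonneg (mul_nonneg (hp _ _) (hp _ _)) (mul_nonneg (hp _ _) (hp _ _))
        · rw [zero_mul]
    have hlr := lr_ineq (range (s + 1)) U V φ hφ hLR
    have := mul_le_mul_of_nonneg_left hlr (mul_nonneg (hp i b') (hp i b))
    linarith
  · have hz : ∀ F : (Fin 3 → ℕ) → ℝ,
        ∑ l ∈ Finset.Nat.antidiagonalTuple 3 m, (if l i = b' then F l else 0) = 0 := by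
      intro F
      refine sum_eq_zero fun l hl => ?_
      rw [Finset.Nat.mem_antidiagonalTuple, fin3_sum hij hik hjk] at hl
      rw [if_neg (by omega)]
    rw [hz, hz, zero_mul, mul_zero]

include hp hlc hint in
/-- **The 1-D lemma.** Three independent nonnegative log-concave integer laws with interval
supports, conditioned on their sum: `Var (∑ i, g i (l i)) ≤ 2 * ∑ i, Var (g i (l i))`
(multiplied by the square of the total mass). -/
theorem oneDim (m : ℕ) (g : Fin 3 → ℕ → ℝ) :
    (∑ l ∈ Finset.Nat.antidiagonalTuple 3 m, ∏ i, p i (l i)) *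
        (∑ l ∈ Finset.Nat.antidiagonalTuple 3 m, (∏ i, p i (l i)) * (∑ i, g i (l i)) ^ 2) -
      (∑ l ∈ Finset.Nat.antidiagonalTuple 3 m, (∏ i, p i (l i)) * ∑ i, g i (l i)) ^ 2 ≤
    2 * ∑ i, ((∑ l ∈ Finset.Nat.antidiagonalTuple 3 m, ∏ i, p i (l i)) *
        (∑ l ∈ Finset.Nat.antidiagonalTuple 3 m, (∏ i, p i (l i)) * g i (l i) ^ 2) -
      (∑ l ∈ Finset.Nat.antidiagonalTuple 3 m, (∏ i, p i (l i)) * g i (l i)) ^ 2) := by
  classical
  set S := Finset.Nat.antidiagonalTuple 3 m with hS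
  set Sp := S.filter (fun l => 0 < wt p l) with hSp
  have hwt0 : ∀ l, 0 ≤ wt p l := fun l => prod_nonneg fun t _ => hp t (l t)
  have hS2 : ∀ F : (Fin 3 → ℕ) → ℝ, ∑ l ∈ S, wt p l * F l = ∑ l ∈ Sp, wt p l * F l := by
    intro F
    symm
    apply sum_filter_of_ne
    intro l _ hne
    have : wt p l ≠ 0 := fun h => hne (by rw [h, zero_mul])
    exact lt_of_le_of_ne (hwt0 l) (Ne.symm this)
  let w : ↥Sp → ℝ := fun ω => wt p ω.val
  have hw : ∀ ω : ↥Sp, 0 < w ω := fun ω => (mem_filter.1 ω.property).2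
  let A : Fin 3 → Finset ℕ := fun i => Sp.image (fun l => l i)
  let ℓ : Fin 3 → ↥Sp → ℕ := fun i ω => rk (A i) (ω.val i)
  have hmemA : ∀ i (ω : ↥Sp), ω.val i ∈ A i :=
    fun i ω => mem_image.2 ⟨ω.val, ω.property, rfl⟩
  have hK : ∀ i a, a < (A i).card ↔ ∃ ω : ↥Sp, ℓ i ω = a := by
    intro i a
    constructor
    · intro ha
      obtain ⟨b, hb, hr⟩ := rk_surj ha
      obtain ⟨l, hl, rfl⟩ := mem_image.1 hb
      exact ⟨⟨l, hl⟩, hr⟩
    · rintro ⟨ω, rfl⟩
      exact rk_lt_card (hmemA i ω)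
  have hconv : ∀ i b, b ∈ A i → ∀ F : (Fin 3 → ℕ) → ℝ,
      wEa w (ℓ i) (rk (A i) b) (fun ω => F ω.val) =
        ∑ l ∈ S, if l i = b then wt p l * F l else 0 := by
    intro i b hb F
    unfold wEa
    have e1 : ∑ ω : ↥Sp, (if ℓ i ω = rk (A i) b then w ω * F ω.val else 0) =
        ∑ l ∈ Sp, (if rk (A i) (l i) = rk (A i) b then wt p l * F l else 0) :=
      Finset.sum_coe_sort Sp (fun l => if rk (A i) (l i) = rk (A i) b then wt p l * F l else 0)
    rw [e1]
    have e2 : ∑ l ∈ Sp, (if rk (A i) (l i) = rk (A i) b then wt p l * F l else 0) =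
        ∑ l ∈ Sp, (if l i = b then wt p l * F l else 0) := by
      refine sum_congr rfl fun l hl => ?_
      have hli : l i ∈ A i := mem_image.2 ⟨l, hl, rfl⟩
      by_cases h : l i = b
      · rw [if_pos h, if_pos (by rw [h])]
      · rw [if_neg h, if_neg (fun h' => h (rk_inj hli hb h'))]
    rw [e2]
    apply sum_filter_of_ne
    intro l _ hne
    have : wt p l ≠ 0 := by
      intro h
      apply hne
      split_ifs
      · rw [h, zero_mul]
      · rfl
    exact lt_of_le_of_ne (hwt0 l) (Ne.symm this)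
  have hneg : ∀ i j, i ≠ j → ∀ φ : ℕ → ℝ, Monotone φ → ∀ a, a + 1 < (A i).card →
      wEa w (ℓ i) (a + 1) (fun ω => φ (ℓ j ω)) * wEa w (ℓ i) a (fun _ => 1) ≤
        wEa w (ℓ i) a (fun ω => φ (ℓ j ω)) * wEa w (ℓ i) (a + 1) (fun _ => 1) := by
    intro i j hij φ hφ a ha
    obtain ⟨b, hb, hrb⟩ := rk_surj (A := A i) (r := a) (by omega)
    obtain ⟨b', hb', hrb'⟩ := rk_surj ha
    have hbb : b < b' := by
      by_contra hcon
      have := rk_mono (A i) (not_lt.1 hcon)
      omega
    have c1 := hconv i b' hb' (fun l => φ (rk (A j) (l j)))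
    have c2 := hconv i b hb (fun _ => 1)
    have c3 := hconv i b hb (fun l => φ (rk (A j) (l j)))
    have c4 := hconv i b' hb' (fun _ => 1)
    rw [hrb'] at c1 c4
    rw [hrb] at c2 c3
    show wEa w (ℓ i) (a + 1) (fun ω => φ (rk (A j) (ω.val j))) * _ ≤
      wEa w (ℓ i) a (fun ω => φ (rk (A j) (ω.val j))) * _
    rw [c1, c2, c3, c4]
    simp only [mul_one]
    exact negP p hp hlc hint m hij (fun a => φ (rk (A j) a)) (hφ.comp (rk_mono (A j))) b b' hbb
  let gr : Fin 3 → ℕ → ℝ := fun i r =>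
    if h : ∃ a ∈ A i, rk (A i) a = r then g i (Classical.choose h) else 0
  have hgr : ∀ i (ω : ↥Sp), gr i (ℓ i ω) = g i (ω.val i) := by
    intro i ω
    have h : ∃ a ∈ A i, rk (A i) a = ℓ i ω := ⟨ω.val i, hmemA i ω, rfl⟩
    show (if h : ∃ a ∈ A i, rk (A i) a = ℓ i ω then g i (Classical.choose h) else 0) = _
    rw [dif_pos h]
    have hs := Classical.choose_spec h
    rw [rk_inj hs.1 (hmemA i ω) hs.2]
  have hcore := core w hw ℓ (fun i => (A i).card) hK hneg gr
  simp only [hgr] at hcore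
  have hsum : ∀ F : (Fin 3 → ℕ) → ℝ, ∑ ω : ↥Sp, w ω * F ω.val = ∑ l ∈ S, wt p l * F l := by
    intro F
    rw [hS2]
    exact Finset.sum_coe_sort Sp (fun l => wt p l * F l)
  have e0 : ∑ ω : ↥Sp, w ω = ∑ l ∈ S, wt p l := by
    have := hsum (fun _ => 1)
    simpa using this
  have eA : (∑ ω : ↥Sp, w ω * ((∑ i, g i (ω.val i)) * (∑ i, g i (ω.val i)))) =
      ∑ l ∈ S, wt p l * ((∑ i, g i (l i)) * (∑ i, g i (l i))) :=
    hsum (fun l => (∑ i, g i (l i)) * (∑ i, g i (l i)))
  have eB : (∑ ω : ↥Sp, w ω * (∑ i, g i (ω.val i))) = ∑ l ∈ S, wt p l * (∑ i, g i (l i)) :=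
    hsum (fun l => ∑ i, g i (l i))
  have eC : ∀ i, (∑ ω : ↥Sp, w ω * (g i (ω.val i) * g i (ω.val i))) =
      ∑ l ∈ S, wt p l * (g i (l i) * g i (l i)) :=
    fun i => hsum (fun l => g i (l i) * g i (l i))
  have eD : ∀ i, (∑ ω : ↥Sp, w ω * g i (ω.val i)) = ∑ l ∈ S, wt p l * g i (l i) :=
    fun i => hsum (fun l => g i (l i))
  unfold wcov wE at hcore
  simp only [e0, eA, eB, eC, eD] at hcore
  simp only [wt] at hcore
  simp only [pow_two]
  exact hcore

end Final

end Crest.Agent.Helper5.S0453
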